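import Vale.Agent.Lib.P075.Final3

/-!
Polylogarithmic growth of the dyadic triangular form on the plane.
-/

open MeasureTheory Finset BigOperators Vale.Agent.Lib.P075

/-- For all finite sets of scales, all coefficients bounded by one and all bounded measurable functions
with bounded support in the quadrant, the dyadic form is bounded by the product of the cubic norms
times `10 ^ 6 * (1 + log m) ^ 2`, where `m` is the number of scales. -/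
theorem Vale.Agent.Results.P075.DyadicLogSq.result (S : Finset ℤ) (ε : ℤ → ℝ) (hε : ∀ k, |ε k| ≤ 1)
    (F0 F1 F2 : ℝ × ℝ → ℝ)
    (m0 : Measurable F0) (m1 : Measurable F1) (m2 : Measurable F2)
    (b0 : ∃ B, ∀ p, |F0 p| ≤ B) (b1 : ∃ B, ∀ p, |F1 p| ≤ B) (b2 : ∃ B, ∀ p, |F2 p| ≤ B)
    (c0 : ∃ R : ℝ, ∀ p, F0 p ≠ 0 → 0 ≤ p.1 ∧ p.1 < R ∧ 0 ≤ p.2 ∧ p.2 < R)
    (c1 : ∃ R : ℝ, ∀ p, F1 p ≠ 0 → 0 ≤ p.1 ∧ p.1 < R ∧ 0 ≤ p.2 ∧ p.2 < R)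
    (c2 : ∃ R : ℝ, ∀ p, F2 p ≠ 0 → 0 ≤ p.1 ∧ p.1 < R ∧ 0 ≤ p.2 ∧ p.2 < R) :
    |formD S ε F0 F1 F2| ≤ 1000000 * (1 + Real.log S.card) ^ 2 *
      ((∫ p, |F0 p| ^ 3) ^ (1 / 3 : ℝ) * (∫ p, |F1 p| ^ 3) ^ (1 / 3 : ℝ) * (∫ p, |F2 p| ^ 3) ^ (1 / 3 : ℝ)) :=
  formD_measurable gridGrowth_log S (by positivity) ε hε F0 F1 F2 m0 m1 m2 b0 b1 b2 c0 c1 c2
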