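import Vale.Agent.Lib.P075.Final4

/-!
Uniform boundedness of the dyadic triangular form on the plane.
-/

open MeasureTheory Finset BigOperators Vale.Agent.Lib.P075

/-- For all finite sets of scales, all coefficients bounded by one and all bounded measurable functions
with bounded support in the quadrant, the dyadic form is bounded by `16` times the product of the cubic
norms. -/
theorem Vale.Agent.Results.P075.DyadicUniform.result (S : Finset ℤ) (ε : ℤ → ℝ) (hε : ∀ k, |ε k| ≤ 1)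
    (F0 F1 F2 : ℝ × ℝ → ℝ)
    (m0 : Measurable F0) (m1 : Measurable F1) (m2 : Measurable F2)
    (b0 : ∃ B, ∀ p, |F0 p| ≤ B) (b1 : ∃ B, ∀ p, |F1 p| ≤ B) (b2 : ∃ B, ∀ p, |F2 p| ≤ B)
    (c0 : ∃ R : ℝ, ∀ p, F0 p ≠ 0 → 0 ≤ p.1 ∧ p.1 < R ∧ 0 ≤ p.2 ∧ p.2 < R)
    (c1 : ∃ R : ℝ, ∀ p, F1 p ≠ 0 → 0 ≤ p.1 ∧ p.1 < R ∧ 0 ≤ p.2 ∧ p.2 < R)
    (c2 : ∃ R : ℝ, ∀ p, F2 p ≠ 0 → 0 ≤ p.1 ∧ p.1 < R ∧ 0 ≤ p.2 ∧ p.2 < R) :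
    |formD S ε F0 F1 F2| ≤ 16 *
      ((∫ p, |F0 p| ^ 3) ^ (1 / 3 : ℝ) * (∫ p, |F1 p| ^ 3) ^ (1 / 3 : ℝ) * (∫ p, |F2 p| ^ 3) ^ (1 / 3 : ℝ)) :=
  formD_measurable gridGrowth_uniform S (by norm_num) ε hε F0 F1 F2 m0 m1 m2 b0 b1 b2 c0 c1 c2
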