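import Vale.Agent.Lib.P075.Final2

/-!
Polylogarithmic growth of the dyadic triangular form for step functions, with cubic norms.
-/

open Finset BigOperators Vale.Agent.Lib.P075

/-- Bound for the dyadic triangular form of functions constant on unit squares, supported in the
square of side `2 ^ M`, in terms of their cubic norms: the growth in the number of scales is at most
`(1 + log m) ^ 2`. -/
theorem Vale.Agent.Results.P075.GridCubic.result (M : ℕ) (S : Finset ℕ)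
    (hS : ∀ r ∈ S, 1 ≤ r ∧ r ≤ M) (ε : ℕ → ℝ) (hε : ∀ r, |ε r| ≤ 1)
    (F0 F1 F2 : ℕ → ℕ → ℝ) :
    |∑ r ∈ S, ε r * scaleForm F0 F1 F2 r (2 ^ (M - r))| ≤ 1000000 * (1 + Real.log S.card) ^ 2 *
      ((∑ x ∈ range (2 ^ M), ∑ y ∈ range (2 ^ M), |F0 x y| ^ 3) ^ (1 / 3 : ℝ) *
       (∑ x ∈ range (2 ^ M), ∑ y ∈ range (2 ^ M), |F1 x y| ^ 3) ^ (1 / 3 : ℝ) *
       (∑ x ∈ range (2 ^ M), ∑ y ∈ range (2 ^ M), |F2 x y| ^ 3) ^ (1 / 3 : ℝ)) :=
  grid_cubic M S hS ε hε F0 F1 F2
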