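import Vale.Agent.Lib.P075.Final1

/-!
Polylogarithmic growth of the dyadic triangular form for bounded step functions.
-/

open Finset BigOperators Vale.Agent.Lib.P075

/-- Bound for the dyadic triangular form of functions constant on unit squares and bounded by `1`
on the square of side `2 ^ M`: the growth in the number of scales is at most `(1 + log m) ^ 2`. -/
theorem Vale.Agent.Results.P075.GridPolylog.result (M : ℕ) (S : Finset ℕ)
    (hS : ∀ r ∈ S, 1 ≤ r ∧ r ≤ M) (ε : ℕ → ℝ) (hε : ∀ r, |ε r| ≤ 1)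
    (F0 F1 F2 : ℕ → ℕ → ℝ)
    (h0 : ∀ x y, x < 2 ^ M → y < 2 ^ M → |F0 x y| ≤ 1)
    (h1 : ∀ x y, x < 2 ^ M → y < 2 ^ M → |F1 x y| ≤ 1)
    (h2 : ∀ x y, x < 2 ^ M → y < 2 ^ M → |F2 x y| ≤ 1) :
    |∑ r ∈ S, ε r * scaleForm F0 F1 F2 r (2 ^ (M - r))| ≤ 8000 * (1 + Real.log S.card) ^ 2 * 4 ^ M :=
  grid_bound M S hS ε hε F0 F1 F2 h0 h1 h2
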